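import Mathlib

/-!
# P063 — threshold width of properties determined by the number of edges

`r`-uniform hypergraphs on the vertex set `Fin n` are the subsets of `edges n r` (all `r`-element
subsets of `Fin n`).  For a family `P` of such hypergraphs, `mu n r P p` is the probability that
the random hypergraph with edge probability `p` lies in `P`, `quantile n r P a` is
`inf {p ∈ [0,1] : mu_p(P) ≥ a}` and `width n r P ε = quantile (1 - ε) - quantile ε`.

Main result: if `P` is increasing, nontrivial and membership in `P` depends only on the number of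
edges, then `width n r P ε ≤ sqrt (2 / (ε N))` with `N = (edges n r).card`; for graphs this gives
`(log n)^2 * width ≤ sqrt (128 / ε)`.
-/

namespace Vale.Agent.Results.P063.A_EdgeCountProperties

open Finset

/-- The edge set `E_{n,r}`: all `r`-element subsets of the vertex set `Fin n`. -/
def edges (n r : ℕ) : Finset (Finset (Fin n)) := powersetCard r univ

/-- `mu_p(P)`: the probability that the random `r`-uniform hypergraph on `Fin n`, each edge present
independently with probability `p`, lies in `P`. -/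
noncomputable def mu (n r : ℕ) (P : Set (Finset (Finset (Fin n)))) (p : ℝ) : ℝ :=
  open Classical in
  ∑ H ∈ (edges n r).powerset with H ∈ P,
    p ^ H.card * (1 - p) ^ ((edges n r).card - H.card)

/-- `p_a(P) = inf {p ∈ [0,1] : mu_p(P) ≥ a}`. -/
noncomputable def quantile (n r : ℕ) (P : Set (Finset (Finset (Fin n)))) (a : ℝ) : ℝ :=
  sInf {p : ℝ | 0 ≤ p ∧ p ≤ 1 ∧ a ≤ mu n r P p}

/-- The threshold width `w_ε(P) = p_{1-ε}(P) - p_ε(P)`. -/
noncomputable def width (n r : ℕ) (P : Set (Finset (Finset (Fin n)))) (ε : ℝ) : ℝ :=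
  quantile n r P (1 - ε) - quantile n r P ε

/-- Binomial weights. -/
private noncomputable def bw (N : ℕ) (p : ℝ) (k : ℕ) : ℝ :=
  (N.choose k : ℝ) * p ^ k * (1 - p) ^ (N - k)

/-- The binomial upper tail. -/
private noncomputable def tail (N m : ℕ) (p : ℝ) : ℝ :=
  ∑ k ∈ range (N + 1) with m ≤ k, bw N p k

private lemma bw_nonneg (N : ℕ) (p : ℝ) (hp0 : 0 ≤ p) (hp1 : p ≤ 1) (k : ℕ) : 0 ≤ bw N p k := by
  unfold bw
  have : 0 ≤ 1 - p := by linarith
  positivity

private lemma bw_sum (N : ℕ) (p : ℝ) : ∑ k ∈ range (N + 1), bw N p k = 1 := by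
  have h := add_pow p (1 - p) N
  have h1 : p + (1 - p) = 1 := by ring
  rw [h1, one_pow] at h
  rw [h]
  apply Finset.sum_congr rfl
  intro k _
  unfold bw
  ring

private lemma bw_var (N : ℕ) (p : ℝ) :
    ∑ k ∈ range (N + 1), ((N : ℝ) * p - k) ^ 2 * bw N p k = N * p * (1 - p) := by
  have h := congrArg (Polynomial.eval p) (bernsteinPolynomial.variance ℝ N)
  simp only [Polynomial.eval_finsetSum, Polynomial.eval_mul, Polynomial.eval_pow,
    Polynomial.eval_sub, Polynomial.eval_X, Polynomial.eval_natCast,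
    Polynomial.eval_one, nsmul_eq_mul, bernsteinPolynomial] at h
  rw [← h]
  apply Finset.sum_congr rfl
  intro k _
  unfold bw
  ring

private lemma cheb_all (N : ℕ) (p t : ℝ) :
    ∑ k ∈ range (N + 1), ((N : ℝ) * p - k) ^ 2 / t ^ 2 * bw N p k = N * p * (1 - p) / t ^ 2 := by
  rw [← bw_var N p, Finset.sum_div]
  apply Finset.sum_congr rfl
  intro k _
  ring

private lemma var_le (N : ℕ) (p t : ℝ) (ht : 0 < t) :
    (N : ℝ) * p * (1 - p) / t ^ 2 ≤ N / (4 * t ^ 2) := by
  rw [div_le_div_iff₀ (by positivity) (by positivity)]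
  have h1 : p * (1 - p) ≤ 1 / 4 := by nlinarith [sq_nonneg (p - 1 / 2)]
  have hN : (0 : ℝ) ≤ N := Nat.cast_nonneg N
  have h2 : 0 ≤ (N : ℝ) * t ^ 2 := by positivity
  nlinarith

/-- Chebyshev, upper tail. -/
private lemma tail_le (N m : ℕ) (p t : ℝ) (hp0 : 0 ≤ p) (hp1 : p ≤ 1) (ht : 0 < t)
    (h : t ≤ (m : ℝ) - N * p) : tail N m p ≤ N / (4 * t ^ 2) := by
  have h1 : tail N m p ≤
      ∑ k ∈ range (N + 1) with m ≤ k, ((N : ℝ) * p - k) ^ 2 / t ^ 2 * bw N p k := by
    unfold tail
    apply Finset.sum_le_sum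
    intro k hk
    rw [Finset.mem_filter] at hk
    have hb := bw_nonneg N p hp0 hp1 k
    have hk' : (m : ℝ) ≤ k := by exact_mod_cast hk.2
    have h2 : 1 ≤ ((N : ℝ) * p - k) ^ 2 / t ^ 2 := by
      rw [le_div_iff₀ (by positivity)]
      nlinarith
    nlinarith
  have h2 : ∑ k ∈ range (N + 1) with m ≤ k, ((N : ℝ) * p - k) ^ 2 / t ^ 2 * bw N p k
      ≤ ∑ k ∈ range (N + 1), ((N : ℝ) * p - k) ^ 2 / t ^ 2 * bw N p k := by
    apply Finset.sum_le_sum_of_subset_of_nonneg (Finset.filter_subset _ _)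
    intro k _ _
    have hb := bw_nonneg N p hp0 hp1 k
    positivity
  have h3 := cheb_all N p t
  have h4 := var_le N p t ht
  linarith

/-- Chebyshev, lower tail. -/
private lemma one_sub_tail_le (N m : ℕ) (p t : ℝ) (hp0 : 0 ≤ p) (hp1 : p ≤ 1) (ht : 0 < t)
    (h : t ≤ (N : ℝ) * p - m) : 1 - tail N m p ≤ N / (4 * t ^ 2) := by
  have hsplit : tail N m p + ∑ k ∈ range (N + 1) with ¬ m ≤ k, bw N p k = 1 := by
    unfold tail
    rw [Finset.sum_filter_add_sum_filter_not, bw_sum]
  have h1 : ∑ k ∈ range (N + 1) with ¬ m ≤ k, bw N p k ≤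
      ∑ k ∈ range (N + 1) with ¬ m ≤ k, ((N : ℝ) * p - k) ^ 2 / t ^ 2 * bw N p k := by
    apply Finset.sum_le_sum
    intro k hk
    rw [Finset.mem_filter] at hk
    have hb := bw_nonneg N p hp0 hp1 k
    have hk' : (k : ℝ) ≤ m := by
      have : k ≤ m := by omega
      exact_mod_cast this
    have h2 : 1 ≤ ((N : ℝ) * p - k) ^ 2 / t ^ 2 := by
      rw [le_div_iff₀ (by positivity)]
      nlinarith
    nlinarith
  have h2 : ∑ k ∈ range (N + 1) with ¬ m ≤ k, ((N : ℝ) * p - k) ^ 2 / t ^ 2 * bw N p k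
      ≤ ∑ k ∈ range (N + 1), ((N : ℝ) * p - k) ^ 2 / t ^ 2 * bw N p k := by
    apply Finset.sum_le_sum_of_subset_of_nonneg (Finset.filter_subset _ _)
    intro k _ _
    have hb := bw_nonneg N p hp0 hp1 k
    positivity
  have h3 := cheb_all N p t
  have h4 := var_le N p t ht
  linarith

private lemma tail_one (N m : ℕ) (hm : m ≤ N) : 1 ≤ tail N m 1 := by
  unfold tail
  have hmem : N ∈ (range (N + 1)).filter (fun k => m ≤ k) := by
    rw [Finset.mem_filter, Finset.mem_range]
    exact ⟨by omega, hm⟩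
  have h := Finset.single_le_sum (f := fun k => bw N 1 k)
    (fun k _ => bw_nonneg N 1 (by norm_num) (by norm_num) k) hmem
  have h1 : bw N 1 N = 1 := by
    unfold bw
    simp
  rw [h1] at h
  exact h

/-- For a property given by an edge-count threshold, `mu` is a binomial tail. -/
private lemma mu_eq_tail (n r m : ℕ) (P : Set (Finset (Finset (Fin n))))
    (hP : ∀ H, H ⊆ edges n r → (H ∈ P ↔ m ≤ H.card)) (p : ℝ) :
    mu n r P p = tail (edges n r).card m p := by
  classical
  unfold mu tail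
  rw [Finset.sum_filter, Finset.sum_filter]
  let g : ℕ → ℝ := fun k => if m ≤ k then p ^ k * (1 - p) ^ ((edges n r).card - k) else 0
  have h1 : ∀ H ∈ (edges n r).powerset,
      (if H ∈ P then p ^ H.card * (1 - p) ^ ((edges n r).card - H.card) else 0) = g H.card := by
    intro H hH
    rw [Finset.mem_powerset] at hH
    simp only [g, hP H hH]
  rw [Finset.sum_congr rfl h1, Finset.sum_powerset_apply_card g]
  apply Finset.sum_congr rfl
  intro k _
  simp only [g]
  unfold bw
  split_ifs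
  · rw [nsmul_eq_mul]; ring
  · simp

/-- An increasing nontrivial property determined by the number of edges is an edge-count
threshold. -/
private lemma threshold_form (n r : ℕ) (P : Set (Finset (Finset (Fin n))))
    (hinc : ∀ H H', H ⊆ H' → H' ⊆ edges n r → H ∈ P → H' ∈ P)
    (hne : ∃ H, H ⊆ edges n r ∧ H ∈ P) (hnt : ∃ H, H ⊆ edges n r ∧ H ∉ P)
    (hcnt : ∀ H H', H ⊆ edges n r → H' ⊆ edges n r → H.card = H'.card → (H ∈ P ↔ H' ∈ P)) :
    ∃ m, 1 ≤ m ∧ m ≤ (edges n r).card ∧ ∀ H, H ⊆ edges n r → (H ∈ P ↔ m ≤ H.card) := by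
  classical
  have hex : ∃ k, ∃ H, H ⊆ edges n r ∧ H ∈ P ∧ H.card = k := by
    obtain ⟨H, hH, hHP⟩ := hne
    exact ⟨H.card, H, hH, hHP, rfl⟩
  obtain ⟨H0, hH0, hH0P, hH0c⟩ := Nat.find_spec hex
  refine ⟨Nat.find hex, ?_, ?_, ?_⟩
  · by_contra hlt
    have h0 : Nat.find hex = 0 := by omega
    rw [h0, Finset.card_eq_zero] at hH0c
    obtain ⟨H, hH, hHP⟩ := hnt
    exact hHP (hinc H0 H (by rw [hH0c]; exact Finset.empty_subset _) hH hH0P)
  · rw [← hH0c]
    exact Finset.card_le_card hH0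
  · intro H hH
    constructor
    · intro hHP
      exact Nat.find_min' hex ⟨H, hH, hHP, rfl⟩
    · intro hle
      obtain ⟨H1, hH1, hH1c⟩ := Finset.exists_subset_card_eq hle
      have hH1E : H1 ⊆ edges n r := hH1.trans hH
      have : H1 ∈ P := (hcnt H0 H1 hH0 hH1E (by rw [hH0c, hH1c])).1 hH0P
      exact hinc H1 H hH1 hH this

/-- Monotonicity of `mu` in the family. -/
private lemma mu_mono (n r : ℕ) (P Q : Set (Finset (Finset (Fin n))))
    (h : ∀ H, H ⊆ edges n r → H ∈ P → H ∈ Q) (p : ℝ) (hp0 : 0 ≤ p) (hp1 : p ≤ 1) :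
    mu n r P p ≤ mu n r Q p := by
  classical
  unfold mu
  apply Finset.sum_le_sum_of_subset_of_nonneg
  · intro H hH
    rw [Finset.mem_filter] at hH ⊢
    exact ⟨hH.1, h H (Finset.mem_powerset.1 hH.1) hH.2⟩
  · intro H _ _
    have : 0 ≤ 1 - p := by linarith
    positivity

private lemma mu_le_tail (n r a : ℕ) (P : Set (Finset (Finset (Fin n))))
    (hlow : ∀ H, H ⊆ edges n r → H ∈ P → a ≤ H.card) (p : ℝ) (hp0 : 0 ≤ p) (hp1 : p ≤ 1) :
    mu n r P p ≤ tail (edges n r).card a p := by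
  rw [← mu_eq_tail n r a {H | a ≤ H.card} (fun H _ => Iff.rfl) p]
  exact mu_mono n r P _ (fun H hH hHP => hlow H hH hHP) p hp0 hp1

private lemma tail_le_mu (n r b : ℕ) (P : Set (Finset (Finset (Fin n))))
    (hup : ∀ H, H ⊆ edges n r → b ≤ H.card → H ∈ P) (p : ℝ) (hp0 : 0 ≤ p) (hp1 : p ≤ 1) :
    tail (edges n r).card b p ≤ mu n r P p := by
  rw [← mu_eq_tail n r b {H | b ≤ H.card} (fun H _ => Iff.rfl) p]
  exact mu_mono n r _ P (fun H hH hHb => hup H hH hHb) p hp0 hp1

private lemma card_edges (n r : ℕ) : (edges n r).card = n.choose r := by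
  unfold edges
  rw [Finset.card_powersetCard, Finset.card_univ, Fintype.card_fin]

/-- The sandwich bound: if every member of `P` has at least `a` edges and every hypergraph with
at least `b` edges is a member, then the threshold width is at most
`(b - a) / N + 1 / sqrt (ε N)`. -/
theorem width_le (n r a b : ℕ) (P : Set (Finset (Finset (Fin n)))) (hr : r ≤ n)
    (hb : b ≤ (edges n r).card)
    (hlow : ∀ H, H ⊆ edges n r → H ∈ P → a ≤ H.card)
    (hup : ∀ H, H ⊆ edges n r → b ≤ H.card → H ∈ P)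
    (ε : ℝ) (hε0 : 0 < ε) (hε1 : ε < 1 / 2) :
    width n r P ε ≤
      ((b : ℝ) - a) / (edges n r).card + 1 / Real.sqrt (ε * (edges n r).card) := by
  have hN1 : 0 < (edges n r).card := by
    rw [card_edges]
    exact Nat.choose_pos hr
  set N : ℕ := (edges n r).card with hNdef
  have hNpos : (0 : ℝ) < N := by exact_mod_cast hN1
  have hsN : 0 < Real.sqrt N := Real.sqrt_pos.2 hNpos
  have hsε : 0 < Real.sqrt ε := Real.sqrt_pos.2 hε0
  set t : ℝ := Real.sqrt N / (2 * Real.sqrt ε) with ht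
  have htpos : 0 < t := by positivity
  have ht2 : t ^ 2 = N / (4 * ε) := by
    rw [ht, div_pow, mul_pow, Real.sq_sqrt hNpos.le, Real.sq_sqrt hε0.le]
    norm_num
  have hcheb : (N : ℝ) / (4 * t ^ 2) = ε := by
    rw [ht2]
    field_simp
  have h2t : 2 * t / N = 1 / Real.sqrt (ε * N) := by
    rw [Real.sqrt_mul hε0.le, ht, div_eq_div_iff (by positivity) (by positivity)]
    have hNN : Real.sqrt N * Real.sqrt N = N := Real.mul_self_sqrt hNpos.le
    field_simp
    nlinarith
  have hmu1 : 1 ≤ mu n r P 1 :=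
    (tail_one N b hb).trans (tail_le_mu n r b P hup 1 (by norm_num) (by norm_num))
  -- the upper quantile
  have hupper : quantile n r P (1 - ε) ≤ ((b : ℝ) + t) / N := by
    have hU : min 1 (((b : ℝ) + t) / N) ∈
        {p : ℝ | 0 ≤ p ∧ p ≤ 1 ∧ 1 - ε ≤ mu n r P p} := by
      have hq0 : 0 ≤ ((b : ℝ) + t) / N := by positivity
      refine ⟨le_min (by norm_num) hq0, min_le_left _ _, ?_⟩
      rcases le_total 1 (((b : ℝ) + t) / N) with h | h
      · rw [min_eq_left h]
        linarith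
      · rw [min_eq_right h]
        have h1 : t ≤ (N : ℝ) * (((b : ℝ) + t) / N) - b := by
          have : (N : ℝ) * (((b : ℝ) + t) / N) = b + t := by field_simp
          linarith
        have h2 := one_sub_tail_le N b (((b : ℝ) + t) / N) t hq0 h htpos h1
        have h3 := tail_le_mu n r b P hup (((b : ℝ) + t) / N) hq0 h
        rw [hcheb] at h2
        linarith
    exact (csInf_le ⟨0, fun p hp => hp.1⟩ hU).trans (min_le_right _ _)
  -- the lower quantile
  have hlower : ((a : ℝ) - t) / N ≤ quantile n r P ε := by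
    apply le_csInf
    · exact ⟨1, by norm_num, le_refl _, by linarith⟩
    · rintro p ⟨hp0, hp1, hp⟩
      by_contra hlt
      push Not at hlt
      have h1 : (N : ℝ) * p < a - t := by
        rw [lt_div_iff₀ hNpos] at hlt
        linarith
      have ht' : 0 < (a : ℝ) - N * p := by linarith
      have h2 := tail_le N a p ((a : ℝ) - N * p) hp0 hp1 ht' (le_refl _)
      have h3 := mu_le_tail n r a P hlow p hp0 hp1
      have h4 : (N : ℝ) / (4 * ((a : ℝ) - N * p) ^ 2) < N / (4 * t ^ 2) := by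
        apply div_lt_div_of_pos_left hNpos (by positivity)
        have : t ^ 2 < ((a : ℝ) - N * p) ^ 2 := by nlinarith
        linarith
      rw [hcheb] at h4
      linarith
  unfold width
  have hfin : ((b : ℝ) + t) / N - ((a : ℝ) - t) / N = ((b : ℝ) - a) / N + 2 * t / N := by
    field_simp
    ring
  rw [← h2t, ← hfin]
  linarith

private lemma log_sq_le (n : ℕ) (hn : 1 ≤ n) : (Real.log n) ^ 2 ≤ 16 * Real.sqrt n := by
  have hn1 : (1 : ℝ) ≤ n := by exact_mod_cast hn
  have hn0 : (0 : ℝ) ≤ n := by linarith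
  set y : ℝ := Real.sqrt (Real.sqrt n) with hy
  have hs1 : 1 ≤ Real.sqrt n := by
    rw [show (1 : ℝ) = Real.sqrt 1 by simp]
    exact Real.sqrt_le_sqrt hn1
  have hy1 : 1 ≤ y := by
    rw [hy, show (1 : ℝ) = Real.sqrt 1 by simp]
    exact Real.sqrt_le_sqrt hs1
  have hy2 : y ^ 2 = Real.sqrt n := Real.sq_sqrt (Real.sqrt_nonneg _)
  have hy4 : y ^ 4 = n := by
    have : y ^ 4 = (y ^ 2) ^ 2 := by ring
    rw [this, hy2, Real.sq_sqrt hn0]
  have hlog : Real.log n = 4 * Real.log y := by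
    rw [← hy4, Real.log_pow]
    norm_num
  have h1 : Real.log y ≤ y - 1 := Real.log_le_sub_one_of_pos (by linarith)
  have h0 : 0 ≤ Real.log y := Real.log_nonneg hy1
  rw [hlog, ← hy2]
  nlinarith

private lemma choose_mul_ge (n r : ℕ) (h1 : 1 ≤ r) (hr : r ≤ n) : n ≤ r * n.choose r := by
  obtain ⟨k, rfl⟩ : ∃ k, r = k + 1 := ⟨r - 1, by omega⟩
  obtain ⟨m, rfl⟩ : ∃ m, n = m + 1 := ⟨n - 1, by omega⟩
  have h := Nat.add_one_mul_choose_eq m k
  have hpos : 0 < m.choose k := Nat.choose_pos (by omega)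
  calc m + 1 ≤ (m + 1) * m.choose k := Nat.le_mul_of_pos_right _ hpos
    _ = (m + 1).choose (k + 1) * (k + 1) := h
    _ = (k + 1) * (m + 1).choose (k + 1) := Nat.mul_comm _ _

private lemma log_sq_div_le (n r : ℕ) (h1 : 1 ≤ r) (hr : r ≤ n) (ε : ℝ) (hε0 : 0 < ε) :
    (Real.log n) ^ 2 * (1 / Real.sqrt (ε * (edges n r).card)) ≤ 16 * Real.sqrt (r / ε) := by
  have hn : 1 ≤ n := le_trans h1 hr
  have hN1 : 0 < (edges n r).card := by
    rw [card_edges]
    exact Nat.choose_pos hr
  have hNpos : (0 : ℝ) < (edges n r).card := by exact_mod_cast hN1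
  have hpos : 0 < Real.sqrt (ε * (edges n r).card) := Real.sqrt_pos.2 (by positivity)
  have hge : (n : ℝ) ≤ r * (edges n r).card := by
    have := choose_mul_ge n r h1 hr
    rw [card_edges]
    exact_mod_cast this
  have hmul : Real.sqrt (r / ε) * Real.sqrt (ε * (edges n r).card) =
      Real.sqrt (r * (edges n r).card) := by
    rw [← Real.sqrt_mul (by positivity)]
    congr 1
    field_simp
  have h2 : Real.sqrt n ≤ Real.sqrt (r * (edges n r).card) := Real.sqrt_le_sqrt hge
  have h3 := log_sq_le n hn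
  rw [mul_one_div, div_le_iff₀ hpos, mul_assoc, hmul]
  linarith

/-- **Threshold width from the edge-count window.**

`edges n r` is the set of all `r`-subsets of `Fin n`; put `N = (edges n r).card`.

1. Let `r ≤ n` and let `P` be any family of `r`-uniform hypergraphs on `Fin n` (no symmetry or
   monotonicity is assumed) such that every member of `P` has at least `a` edges and every
   hypergraph with at least `b` edges belongs to `P`, where `b ≤ N`.  Then for `0 < ε < 1/2`
   `width n r P ε ≤ (b - a) / N + 1 / sqrt (ε N)`, and if moreover `1 ≤ r` and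
   `(b - a) (log n)^2 ≤ K N` then `(log n)^2 * width n r P ε ≤ K + 16 sqrt (r / ε)`.
2. Let `1 ≤ r ≤ n` and let `P` be increasing, nonempty, not everything, with membership
   determined by the number of edges.  Then for `0 < ε < 1/2`
   `width n r P ε ≤ 1 / sqrt (ε N)` and `(log n)^2 * width n r P ε ≤ 16 sqrt (r / ε)`. -/
theorem result :
    (∀ (n r a b : ℕ) (P : Set (Finset (Finset (Fin n)))), r ≤ n →
      b ≤ (edges n r).card →
      (∀ H, H ⊆ edges n r → H ∈ P → a ≤ H.card) →
      (∀ H, H ⊆ edges n r → b ≤ H.card → H ∈ P) →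
      ∀ ε : ℝ, 0 < ε → ε < 1 / 2 →
        width n r P ε ≤
          ((b : ℝ) - a) / (edges n r).card + 1 / Real.sqrt (ε * (edges n r).card) ∧
        (1 ≤ r → ∀ K : ℝ, ((b : ℝ) - a) * (Real.log n) ^ 2 ≤ K * (edges n r).card →
          (Real.log n) ^ 2 * width n r P ε ≤ K + 16 * Real.sqrt (r / ε))) ∧
    (∀ (n r : ℕ) (P : Set (Finset (Finset (Fin n)))), 1 ≤ r → r ≤ n →
      (∀ H H', H ⊆ H' → H' ⊆ edges n r → H ∈ P → H' ∈ P) →
      (∃ H, H ⊆ edges n r ∧ H ∈ P) → (∃ H, H ⊆ edges n r ∧ H ∉ P) →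
      (∀ H H', H ⊆ edges n r → H' ⊆ edges n r → H.card = H'.card → (H ∈ P ↔ H' ∈ P)) →
      ∀ ε : ℝ, 0 < ε → ε < 1 / 2 →
        width n r P ε ≤ 1 / Real.sqrt (ε * (edges n r).card) ∧
        (Real.log n) ^ 2 * width n r P ε ≤ 16 * Real.sqrt (r / ε)) := by
  have key : ∀ (n r a b : ℕ) (P : Set (Finset (Finset (Fin n)))), r ≤ n →
      b ≤ (edges n r).card →
      (∀ H, H ⊆ edges n r → H ∈ P → a ≤ H.card) →
      (∀ H, H ⊆ edges n r → b ≤ H.card → H ∈ P) →
      ∀ ε : ℝ, 0 < ε → ε < 1 / 2 →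
        width n r P ε ≤
          ((b : ℝ) - a) / (edges n r).card + 1 / Real.sqrt (ε * (edges n r).card) ∧
        (1 ≤ r → ∀ K : ℝ, ((b : ℝ) - a) * (Real.log n) ^ 2 ≤ K * (edges n r).card →
          (Real.log n) ^ 2 * width n r P ε ≤ K + 16 * Real.sqrt (r / ε)) := by
    intro n r a b P hr hb hlow hup ε hε0 hε1
    have hw := width_le n r a b P hr hb hlow hup ε hε0 hε1
    refine ⟨hw, ?_⟩
    intro h1 K hK
    have hN1 : 0 < (edges n r).card := by
      rw [card_edges]
      exact Nat.choose_pos hr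
    have hNpos : (0 : ℝ) < (edges n r).card := by exact_mod_cast hN1
    have hL : 0 ≤ (Real.log n) ^ 2 := sq_nonneg _
    have h2 := log_sq_div_le n r h1 hr ε hε0
    have h3 : (Real.log n) ^ 2 * (((b : ℝ) - a) / (edges n r).card) ≤ K := by
      rw [mul_div_assoc', div_le_iff₀ hNpos]
      linarith
    calc (Real.log n) ^ 2 * width n r P ε
        ≤ (Real.log n) ^ 2 *
            (((b : ℝ) - a) / (edges n r).card + 1 / Real.sqrt (ε * (edges n r).card)) :=
          mul_le_mul_of_nonneg_left hw hL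
      _ = (Real.log n) ^ 2 * (((b : ℝ) - a) / (edges n r).card) +
            (Real.log n) ^ 2 * (1 / Real.sqrt (ε * (edges n r).card)) := by ring
      _ ≤ K + 16 * Real.sqrt (r / ε) := add_le_add h3 h2
  refine ⟨key, ?_⟩
  intro n r P h1 hr hinc hne hnt hcnt ε hε0 hε1
  obtain ⟨m, _, hmN, hm⟩ := threshold_form n r P hinc hne hnt hcnt
  obtain ⟨hA, hB⟩ := key n r m m P hr hmN (fun H hH hHP => (hm H hH).1 hHP)
    (fun H hH hHm => (hm H hH).2 hHm) ε hε0 hε1
  constructor
  · simpa using hA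
  · have := hB h1 0 (by simp)
    simpa using this

end Vale.Agent.Results.P063.A_EdgeCountProperties
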