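import Mathlib
import Vale.Agent.Lib.P063.Contain

/-!
# P063 — threshold width of the property of containing a copy of a given graph

Graphs on `n` vertices are the simple graphs on `Fin n`.  For a family `P` of such graphs,
`mu n P p` is the probability that the binomial random graph `G(n,p)` lies in `P`,
`quantile n P a = inf {p ∈ [0,1] : mu_p(P) ≥ a}` and `width n P ε = quantile (1 - ε) - quantile ε`.
`containsCopy n H` is the increasing graph property of containing a (not necessarily induced)
copy of `H`, and `pE n H` is the expectation threshold of `H`: the least `p ∈ [0,1]` such that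
every subgraph `F` of `H` has at least `1/2` expected copies in `G(n,p)`.

Main result: `width n (containsCopy n H) ε ≤ 7776000 / ε * pE n H * (log n)^2` for every graph `H`
on at most `n` vertices; hence `(log n)^2 * width ≤ 7776000 K / ε` whenever
`pE n H * (log n)^4 ≤ K`.
-/

namespace Vale.Agent.Results.P063.B_SubgraphContainment

open Vale.Agent.Lib.P064 Vale.Agent.Lib.P063

/-- `mu_p(P)`: the probability that the random graph `G(n,p)` on the vertex set `Fin n` (each
edge present independently with probability `p`) lies in the family `P`. -/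
noncomputable def mu (n : ℕ) (P : Set (SimpleGraph (Fin n))) (p : ℝ) : ℝ :=
  open Classical in
  ∑ G : SimpleGraph (Fin n), if G ∈ P then gnpProb n p G else 0

/-- `p_a(P) = inf {p ∈ [0,1] : mu_p(P) ≥ a}`. -/
noncomputable def quantile (n : ℕ) (P : Set (SimpleGraph (Fin n))) (a : ℝ) : ℝ :=
  sInf {p : ℝ | 0 ≤ p ∧ p ≤ 1 ∧ a ≤ mu n P p}

/-- The threshold width `w_ε(P) = p_{1-ε}(P) - p_ε(P)`. -/
noncomputable def width (n : ℕ) (P : Set (SimpleGraph (Fin n))) (ε : ℝ) : ℝ :=
  quantile n P (1 - ε) - quantile n P ε

/-- The graph property of containing a copy of `H` (as a not necessarily induced subgraph). -/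
def containsCopy (n : ℕ) {W : Type*} (H : SimpleGraph W) : Set (SimpleGraph (Fin n)) :=
  {G | H.IsContained G}

theorem mu_containsCopy (n : ℕ) {W : Type*} [Fintype W] (H : SimpleGraph W) (p : ℝ) :
    mu n (containsCopy n H) p = containProb n p H := by
  classical
  unfold mu containProb
  apply Finset.sum_congr rfl
  intro G _
  by_cases h : H.IsContained G
  · have h1 : G ∈ containsCopy n H := h
    have h2 : 0 < G.copyCount H := SimpleGraph.copyCount_pos.mpr h
    rw [if_pos h1, if_pos h2, mul_one]
  · have h1 : G ∉ containsCopy n H := h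
    have h2 : ¬ 0 < G.copyCount H := fun hpos => h (SimpleGraph.copyCount_pos.mp hpos)
    rw [if_neg h1, if_neg h2, mul_zero]

/-- **Threshold width of subgraph containment.**  Let `n ≥ 2`, let `H` be a graph on at most `n`
vertices and `0 < ε < 1/2`.  The property `containsCopy n H` of containing a copy of `H` has
threshold width at most `7776000 / ε * p_E(n,H) * (log n)^2`, where `p_E(n,H)` is the expectation
threshold of `H`; consequently, if `p_E(n,H) * (log n)^4 ≤ K` then
`(log n)^2 * width ≤ 7776000 * K / ε`. -/
theorem result (n : ℕ) (hn : 2 ≤ n) {W : Type*} [Fintype W] (H : SimpleGraph W)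
    (hW : Fintype.card W ≤ n) (ε : ℝ) (hε0 : 0 < ε) (hε1 : ε < 1 / 2) :
    width n (containsCopy n H) ε ≤ 7776000 / ε * pE n H * (Real.log n) ^ 2 ∧
    (∀ K : ℝ, pE n H * (Real.log n) ^ 4 ≤ K →
      (Real.log n) ^ 2 * width n (containsCopy n H) ε ≤ 7776000 * K / ε) := by
  have hset : ∀ a : ℝ, {p : ℝ | 0 ≤ p ∧ p ≤ 1 ∧ a ≤ mu n (containsCopy n H) p}
      = {p : ℝ | 0 ≤ p ∧ p ≤ 1 ∧ a ≤ containProb n p H} := by
    intro a
    ext p
    simp only [Set.mem_ofPred_eq, mu_containsCopy]
  have hupper : quantile n (containsCopy n H) (1 - ε)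
      ≤ 7776000 / ε * pE n H * (Real.log n) ^ 2 := by
    unfold quantile
    rw [hset]
    exact contain_quantile n hn H hW ε hε0 (by linarith)
  have hlower : 0 ≤ quantile n (containsCopy n H) ε := by
    unfold quantile
    rw [hset]
    apply le_csInf
    · exact ⟨1, zero_le_one, le_refl 1, by
        have := containProb_one n H hW
        linarith⟩
    · intro p hp
      exact hp.1
  have hw : width n (containsCopy n H) ε ≤ 7776000 / ε * pE n H * (Real.log n) ^ 2 := by
    unfold width
    linarith
  refine ⟨hw, ?_⟩
  intro K hK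
  have hL : 0 ≤ (Real.log n) ^ 2 := sq_nonneg _
  calc (Real.log n) ^ 2 * width n (containsCopy n H) ε
      ≤ (Real.log n) ^ 2 * (7776000 / ε * pE n H * (Real.log n) ^ 2) :=
        mul_le_mul_of_nonneg_left hw hL
    _ = 7776000 * (pE n H * (Real.log n) ^ 4) / ε := by ring
    _ ≤ 7776000 * K / ε := by
        apply div_le_div_of_nonneg_right _ hε0.le
        linarith

end Vale.Agent.Results.P063.B_SubgraphContainment
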